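import Mathlib
import Vale.Agent.P317.Girth

namespace Vale.Agent.Results.P317.TopLevels

open Set

/-- Two matroids of rank `r` on a finite ground set `α` with `n` elements.  If every
`M₂`-independent set of size at most `r - c` is `M₁`-independent (for `c = 1` this holds for every
`M₂` as soon as `M₁` is paving), then either there is no common base, or the common bases are at
least a `1 / (n ^ 2 + 1) ^ c` fraction of the bases of `M₂`. -/
theorem result {α : Type*} [Fintype α] (M₁ M₂ : Matroid α)
    (hE₁ : M₁.E = Set.univ) (hE₂ : M₂.E = Set.univ) (r c : ℕ)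
    (hr₁ : M₁.eRank = r) (hr₂ : M₂.eRank = r)
    (hc : ∀ S : Set α, M₂.Indep S → S.ncard + c ≤ r → M₁.Indep S) :
    {B : Set α | M₁.IsBase B ∧ M₂.IsBase B}.ncard = 0 ∨
      {B : Set α | M₂.IsBase B}.ncard ≤
        (Fintype.card α ^ 2 + 1) ^ c * {B : Set α | M₁.IsBase B ∧ M₂.IsBase B}.ncard := by
  by_cases hne : ∃ B : Set α, M₁.IsBase B ∧ M₂.IsBase B
  · obtain ⟨Bs, h1, h2⟩ := hne
    right
    have hcard : Bs.ncard = r := by
      have h := h1.encard_eq_eRank
      rw [hr₁] at h
      have h' : (Bs.ncard : ℕ∞) = (r : ℕ∞) := by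
        rw [(Set.toFinite Bs).cast_ncard_eq]; exact h
      exact_mod_cast h'
    exact Vale.Agent.P317.main M₁ M₂ hE₁ c h1 h2 (fun S hS hle => hc S hS (hcard ▸ hle))
  · left
    have : {B : Set α | M₁.IsBase B ∧ M₂.IsBase B} = ∅ := by
      ext B
      simp only [mem_setOf_eq, mem_empty_iff_false, iff_false]
      exact fun h => hne ⟨B, h⟩
    rw [this, ncard_empty]

end Vale.Agent.Results.P317.TopLevels
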