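import Mathlib
import Vale.Agent.Results.P317.TopLevels

namespace Vale.Agent.Results.P317.U_PavingCase

open Set

/-- Two matroids of rank `r` on a finite ground set with `n` elements, the first one paving (every
set with fewer than `r` elements is independent in it), the second one arbitrary: either there is
no common base, or the common bases are at least a `1 / (n ^ 2 + 1)` fraction of the bases of the
second matroid. -/
theorem result {α : Type*} [Fintype α] (M₁ M₂ : Matroid α)
    (hE₁ : M₁.E = Set.univ) (hE₂ : M₂.E = Set.univ) (r : ℕ)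
    (hr₁ : M₁.eRank = r) (hr₂ : M₂.eRank = r)
    (hpav : ∀ S : Set α, S.ncard < r → M₁.Indep S) :
    {B : Set α | M₁.IsBase B ∧ M₂.IsBase B}.ncard = 0 ∨
      {B : Set α | M₂.IsBase B}.ncard ≤
        (Fintype.card α ^ 2 + 1) * {B : Set α | M₁.IsBase B ∧ M₂.IsBase B}.ncard := by
  have h := Vale.Agent.Results.P317.TopLevels.result M₁ M₂ hE₁ hE₂ r 1 hr₁ hr₂
    (fun S _ hS => hpav S (by omega))
  simpa using h

end Vale.Agent.Results.P317.U_PavingCase
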